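import Vale.Agent.P207.H686.K.SB2
import Vale.Agent.P207.H751.Pair

/-!
# P207, all dimensions: the end of step 7 when only `b < 2 a` is known

If the tensor has at ONE frame a 2-jet (with error `o (‖x‖ ^ 2)`), then some `S_w` contains the
square of a unit covector: along the flow the covector is chosen at the smallest singular value,
so that the error disappears without any condition on the rates.
-/

set_option linter.all false

open Metric Set Filter Topology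
open scoped ContDiff

noncomputable section

namespace Vale.Agent.P207.H310

open Vale.Agent.P207.H686 Vale.Agent.P207.H751

section Poly

variable {V : Type*} [NormedAddCommGroup V] [NormedSpace ℝ V]

theorem fderiv_quad (c : ℝ) (l : V →L[ℝ] ℝ) (q : V →L[ℝ] V →L[ℝ] ℝ) :
    fderiv ℝ (fun y => c + l y + q y y) = fun y => l + (q + q.flip) y := by
  funext y
  have h1 : HasFDerivAt (fun y => q y y) ((q y).comp (ContinuousLinearMap.id ℝ V) + q.flip y) y :=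
    q.hasFDerivAt.clm_apply (hasFDerivAt_id y)
  have h2 : HasFDerivAt (fun y => c + l y) l y := by
    have h3 := (hasFDerivAt_const c y).add l.hasFDerivAt
    rw [zero_add] at h3
    exact h3
  have h3 := (h2.add h1).fderiv
  refine Eq.trans h3 ?_
  ext z
  simp

theorem fderiv_quad2 (l : V →L[ℝ] ℝ) (q : V →L[ℝ] V →L[ℝ] ℝ) :
    fderiv ℝ (fun y => l + (q + q.flip) y) = fun _ => q + q.flip := by
  funext y
  have h3 := ((hasFDerivAt_const l y).add (q + q.flip).hasFDerivAt).fderiv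
  rw [zero_add] at h3
  exact h3

/-- a polynomial of degree `2` has no third derivatives -/
theorem iter_quad (c : ℝ) (l : V →L[ℝ] ℝ) (q : V →L[ℝ] V →L[ℝ] ℝ) {k : ℕ} (hk : 3 ≤ k) (x : V) :
    iteratedFDeriv ℝ k (fun y => c + l y + q y y) x = 0 := by
  obtain ⟨j, rfl⟩ : ∃ j, k = j + 1 + 1 + 1 := ⟨k - 3, by omega⟩
  rw [← norm_eq_zero, ← norm_iteratedFDeriv_fderiv, fderiv_quad, ← norm_iteratedFDeriv_fderiv,
    fderiv_quad2, iteratedFDeriv_const_of_ne (Nat.succ_ne_zero j)]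
  simp

theorem contDiff_quad (c : ℝ) (l : V →L[ℝ] ℝ) (q : V →L[ℝ] V →L[ℝ] ℝ) :
    ContDiff ℝ ∞ (fun y => c + l y + q y y) :=
  (contDiff_const.add l.contDiff).add (q.contDiff.clm_apply contDiff_id)

end Poly

section Sq

variable {V : Type} [NormedAddCommGroup V] [NormedSpace ℝ V]

/-- the square of a covector -/
def sq (α : V →L[ℝ] ℝ) : Fm V := Fm.of (α.smulRight α)

theorem sq_f (α : V →L[ℝ] ℝ) (x y : V) : (sq α).f x y = α x * α y := rfl

theorem sq_norm (α : V →L[ℝ] ℝ) : ‖sq α‖ ≤ ‖α‖ ^ 2 := by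
  refine Fm.norm_le (by positivity) fun x y => ?_
  rw [sq_f, norm_mul]
  calc ‖α x‖ * ‖α y‖ ≤ (‖α‖ * ‖x‖) * (‖α‖ * ‖y‖) := by gcongr <;> exact α.le_opNorm _
    _ = ‖α‖ ^ 2 * ‖x‖ * ‖y‖ := by ring

theorem sq_act (A : V ≃L[ℝ] V) (α : V →L[ℝ] ℝ) :
    act A (sq (α.comp (A : V →L[ℝ] V))) = sq α :=
  Fm.ext fun x y => by
    rw [act_apply, sq_f, sq_f]
    simp

theorem sq_sub (α β : V →L[ℝ] ℝ) : ‖sq α - sq β‖ ≤ ‖α - β‖ * (‖α‖ + ‖β‖) := by
  refine Fm.norm_le (by positivity) fun x y => ?_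
  have h1 : (sq α - sq β).f x y = (α - β) x * α y + β x * (α - β) y := by
    show α x * α y - β x * β y = (α x - β x) * α y + β x * (α y - β y)
    ring
  rw [h1]
  refine (norm_add_le _ _).trans ?_
  rw [norm_mul, norm_mul]
  calc ‖(α - β) x‖ * ‖α y‖ + ‖β x‖ * ‖(α - β) y‖
      ≤ (‖α - β‖ * ‖x‖) * (‖α‖ * ‖y‖) + (‖β‖ * ‖x‖) * (‖α - β‖ * ‖y‖) := by
        gcongr <;> exact ContinuousLinearMap.le_opNorm _ _
    _ = ‖α - β‖ * (‖α‖ + ‖β‖) * ‖x‖ * ‖y‖ := by ring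

/-- a unit covector at the smallest singular value -/
theorem exists_cov [Nontrivial V] (A : V ≃L[ℝ] V) : ∃ α : V →L[ℝ] ℝ, ‖α‖ = 1 ∧
    ‖α.comp (A : V →L[ℝ] V)‖ * ‖(A.symm : V →L[ℝ] V)‖ ≤ 2 := by
  have hm : 0 < ‖(A.symm : V →L[ℝ] V)‖ := by
    obtain ⟨z, hz⟩ := exists_ne (0 : V)
    by_contra hcon
    have h0 : ‖(A.symm : V →L[ℝ] V)‖ = 0 := le_antisymm (not_lt.1 hcon) (norm_nonneg _)
    rw [norm_eq_zero] at h0
    apply hz
    have h1 : A.symm (A z) = (A.symm : V →L[ℝ] V) (A z) := rfl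
    rw [h0, A.symm_apply_apply] at h1
    exact h1
  set m := ‖(A.symm : V →L[ℝ] V)‖ with hmdef
  obtain ⟨x, hx1, hx2⟩ := ContinuousLinearMap.exists_lt_apply_of_lt_opNorm (A.symm : V →L[ℝ] V)
    (show m / 2 < ‖(A.symm : V →L[ℝ] V)‖ by rw [← hmdef]; linarith)
  have hx0 : (A.symm : V →L[ℝ] V) x ≠ 0 := by
    intro h0
    rw [h0, norm_zero] at hx2
    linarith
  obtain ⟨g, hg1, hg2⟩ := exists_dual_vector ℝ ((A.symm : V →L[ℝ] V) x) (norm_ne_zero_iff.2 hx0)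
  set γ : V →L[ℝ] ℝ := g.comp (A.symm : V →L[ℝ] V) with hγ
  have h1 : m / 2 < ‖γ‖ := by
    have h2 : ‖γ x‖ ≤ ‖γ‖ * ‖x‖ := γ.le_opNorm x
    have h3 : γ x = ‖(A.symm : V →L[ℝ] V) x‖ := by
      rw [hγ]
      exact hg2
    have h4 : ‖γ x‖ = ‖(A.symm : V →L[ℝ] V) x‖ := by
      rw [h3, norm_norm]
    have h5 : ‖γ‖ * ‖x‖ ≤ ‖γ‖ * 1 := by gcongr
    linarith
  have hγ0 : 0 < ‖γ‖ := by linarith
  refine ⟨‖γ‖⁻¹ • γ, ?_, ?_⟩
  · rw [norm_smul, norm_inv, norm_norm, inv_mul_cancel₀ hγ0.ne']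
  · have h2 : (‖γ‖⁻¹ • γ).comp (A : V →L[ℝ] V) = ‖γ‖⁻¹ • g := by
      refine ContinuousLinearMap.ext fun z => ?_
      show ‖γ‖⁻¹ • g (A.symm (A z)) = ‖γ‖⁻¹ • g z
      rw [A.symm_apply_apply]
    rw [h2, norm_smul, norm_inv, norm_norm, hg1, mul_one, inv_mul_eq_div, div_le_iff₀ hγ0]
    linarith

end Sq

section Main

variable {V : Type} [NormedAddCommGroup V] [NormedSpace ℝ V] {k0 : ℕ} {X : Type*}

/-- the forms move by the action -/
theorem ch_act {D : ZDk k0 V (Fm V) X} (hact : ∀ {v A L v'}, D.St v A L v' → L = act A)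
    {v : X} {n : ℕ} {A : V ≃L[ℝ] V} {L : Fm V ≃L[ℝ] Fm V} {v' : X} (h : Ch D.St v n A L v') :
    ∀ s, L s = act A s := by
  induction h with
  | zero => intro s; exact Fm.ext fun x y => by rw [act_apply]; rfl
  | @succ n A L v' A' L' v'' h h' ih =>
    intro s
    rw [act_trans, ← ih s, ← hact h']
    rfl

theorem exists_ch (D : ZDk k0 V (Fm V) X) (v : X) (n : ℕ) : ∃ A L v', Ch D.St v n A L v' := by
  induction n with
  | zero => exact ⟨_, _, _, Ch.zero v⟩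
  | succ n ih =>
    obtain ⟨A, L, v', h⟩ := ih
    obtain ⟨A', L', v'', h'⟩ := D.St_next v'
    exact ⟨_, _, _, Ch.succ h h'⟩

variable [FiniteDimensional ℝ V] [Nontrivial V]

/-- **The end of step 7.** If the tensor has at one frame a 2-jet (in the sense of Peano), some
`S_w` contains the square of a unit covector. -/
theorem exists_sq (D : ZDk k0 V (Fm V) X) (hact : ∀ {v A L v'}, D.St v A L v' → L = act A)
    {v₀ : X} (a : Fm V →L[ℝ] ℝ) (l : V →L[ℝ] (Fm V →L[ℝ] ℝ))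
    (Q : V →L[ℝ] V →L[ℝ] (Fm V →L[ℝ] ℝ))
    (hj : ∀ ε > 0, ∃ δ > 0, ∀ x : V, ‖x‖ ≤ δ →
      ‖D.N v₀ x - (a + l x + Q x x)‖ ≤ ε * ‖x‖ ^ 2) :
    ∃ w, ∃ α : V →L[ℝ] ℝ, ‖α‖ = 1 ∧ sq α ∈ D.Sm w := by
  choose A L v hCh using fun n => exists_ch D v₀ n
  choose α hα1 hα2 using fun n => exists_cov (A n)
  choose e he heb hN using fun n => D.ch_N (hCh n)
  obtain ⟨w, ψ, hψ, hw⟩ := D.cpt v
  haveI : ProperSpace (V →L[ℝ] ℝ) := FiniteDimensional.proper ℝ _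
  obtain ⟨β, hβ, φ, hφ, hlim⟩ := (isCompact_sphere (0 : V →L[ℝ] ℝ) 1).tendsto_subseq
    (x := fun n => α (ψ n)) (fun n => by simpa using hα1 (ψ n))
  have hβ1 : ‖β‖ = 1 := by simpa using hβ
  refine ⟨w, β, hβ1, ?_⟩
  -- the small singular values
  set m : ℕ → ℝ := fun n => ‖((A n).symm : V →L[ℝ] V)‖ with hm
  have hmle : ∀ n, m n ≤ D.lam ^ n := fun n =>
    ContinuousLinearMap.opNorm_le_bound _ (pow_nonneg D.lam0.le n) fun x => D.ch_A (hCh n) x
  let s : ℕ → Fm V := fun n => sq ((α n).comp (A n : V →L[ℝ] V))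
  have hLs : ∀ n, L n (s n) = sq (α n) := fun n => by
    rw [ch_act hact (hCh n), sq_act]
  have hs : ∀ n, ‖s n‖ * m n ^ 2 ≤ 4 := fun n => by
    have h1 := sq_norm ((α n).comp (A n : V →L[ℝ] V))
    have h2 := hα2 n
    have h3 : 0 ≤ m n := norm_nonneg _
    have h4 : 0 ≤ ‖(α n).comp (A n : V →L[ℝ] V)‖ * m n := by positivity
    calc ‖s n‖ * m n ^ 2 ≤ ‖(α n).comp (A n : V →L[ℝ] V)‖ ^ 2 * m n ^ 2 := by gcongr
      _ = (‖(α n).comp (A n : V →L[ℝ] V)‖ * m n) ^ 2 := by ring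
      _ ≤ 2 ^ 2 := by gcongr
      _ = 4 := by norm_num
  have hsα : ∀ n, ‖sq (α n)‖ ≤ 1 := fun n => by
    have h1 := sq_norm (α n)
    rw [hα1 n] at h1
    simpa using h1
  -- the polynomials
  let B : ℕ → V →L[ℝ] V := fun n => ((A n).symm : V →L[ℝ] V)
  let ap : Fm V → (Fm V →L[ℝ] ℝ) →L[ℝ] ℝ := fun t => ContinuousLinearMap.apply ℝ ℝ t
  let c' : ℕ → ℝ := fun n => a (s n)
  let l' : ℕ → V →L[ℝ] ℝ := fun n => (ap (s n)).comp (l.comp (B n))
  let q' : ℕ → V →L[ℝ] V →L[ℝ] ℝ := fun n =>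
    (ContinuousLinearMap.compL ℝ V (Fm V →L[ℝ] ℝ) ℝ (ap (s n))).comp (Q.bilinearComp (B n) (B n))
  let p : ℕ → V → ℝ := fun n x => c' n + l' n x + q' n x x
  have hp : ∀ n x, p n x = (a + l (B n x) + Q (B n x) (B n x)) (s n) := fun n x => rfl
  let f : ℕ → V → ℝ := fun n x => p (ψ (φ n)) x + e (ψ (φ n)) x (sq (α (ψ (φ n))))
  have hk' : ∀ k : ℕ, ((k : ℕ) : WithTop ℕ∞) ≤ ∞ := fun k => by
    exact_mod_cast (le_top : (k : ℕ∞) ≤ ⊤)
  have hes : ∀ n (t : Fm V), ContDiffOn ℝ ∞ (fun x => e n x t) (ball 0 1) := fun n t =>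
    (he n).clm_apply contDiffOn_const
  refine D.sm_fin (k := max k0 3) (le_max_left _ _) isOpen_ball le_rfl ⟨0, by simp⟩
    (K' := D.ME (max k0 3)) f (fun n => ?_) (fun n x hx => ?_) ?_
  · exact (contDiff_quad _ _ _).contDiffOn.add (hes _ _)
  · have h1 : iteratedFDeriv ℝ (max k0 3) (f n) x =
        iteratedFDeriv ℝ (max k0 3) (p (ψ (φ n))) x +
        iteratedFDeriv ℝ (max k0 3) (fun x => e (ψ (φ n)) x (sq (α (ψ (φ n))))) x :=
      iteratedFDeriv_add_apply ((contDiff_quad _ _ _).contDiffAt.of_le (hk' _))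
        (((hes _ _).contDiffAt (isOpen_ball.mem_nhds hx)).of_le (hk' _))
    have h2 : iteratedFDeriv ℝ (max k0 3) (p (ψ (φ n))) x = 0 := iter_quad _ _ _
      (le_max_right _ _) x
    have h3 : iteratedFDeriv ℝ (max k0 3) (fun x => e (ψ (φ n)) x (sq (α (ψ (φ n))))) x =
        (ap (sq (α (ψ (φ n))))).compContinuousMultilinearMap
          (iteratedFDeriv ℝ (max k0 3) (e (ψ (φ n))) x) :=
      (ap (sq (α (ψ (φ n))))).iteratedFDeriv_comp_left
        ((he _).contDiffAt (isOpen_ball.mem_nhds hx)) (hk' _)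
    rw [h1, h2, zero_add, h3]
    refine (ContinuousLinearMap.norm_compContinuousMultilinearMap_le _ _).trans ?_
    have h4 : ‖ap (sq (α (ψ (φ n))))‖ ≤ 1 := by
      refine ContinuousLinearMap.opNorm_le_bound _ zero_le_one fun g => ?_
      show ‖g (sq (α (ψ (φ n))))‖ ≤ _
      rw [one_mul]
      calc ‖g (sq (α (ψ (φ n))))‖ ≤ ‖g‖ * ‖sq (α (ψ (φ n)))‖ := g.le_opNorm _
        _ ≤ ‖g‖ * 1 := by gcongr; exact hsα _
        _ = ‖g‖ := mul_one _
    have h5 := heb (ψ (φ n)) (max k0 3) (le_max_left _ _) x hx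
    calc _ ≤ 1 * D.ME (max k0 3) := mul_le_mul h4 h5 (norm_nonneg _) zero_le_one
      _ = _ := one_mul _
  -- the limit
  have hη : Tendsto (fun n => ψ (φ n)) atTop atTop := hψ.tendsto_atTop.comp hφ.tendsto_atTop
  rw [Metric.tendstoUniformlyOn_iff]
  intro ε hε
  obtain ⟨δ, hδ, hjδ⟩ := hj (ε / 16) (by positivity)
  have e1 : ∀ᶠ n in atTop, D.lam ^ (ψ (φ n)) < δ := by
    have h1 : Tendsto (fun n => D.lam ^ (ψ (φ n))) atTop (𝓝 0) :=
      (tendsto_pow_atTop_nhds_zero_of_lt_one D.lam0.le D.lam1).comp hη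
    exact h1.eventually (gt_mem_nhds hδ)
  have e2 : ∀ᶠ n in atTop, ∀ x ∈ ball (0 : V) 1, dist (D.N w x) (D.N (v (ψ (φ n))) x) < ε / 4 :=
    hφ.tendsto_atTop.eventually ((Metric.tendstoUniformlyOn_iff.1 hw) (ε / 4) (by positivity))
  have e3 : ∀ᶠ n in atTop, D.K * (‖α (ψ (φ n)) - β‖ * 2) < ε / 4 := by
    have h1 : Tendsto (fun n => D.K * (‖α (ψ (φ n)) - β‖ * 2)) atTop (𝓝 (D.K * (0 * 2))) :=
      ((tendsto_iff_norm_sub_tendsto_zero.1 hlim).mul_const 2).const_mul _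
    rw [zero_mul, mul_zero] at h1
    exact h1.eventually (gt_mem_nhds (by positivity))
  filter_upwards [e1, e2, e3] with n h1 h2 h3 x hx
  set i := ψ (φ n) with hi
  have hx' : ‖x‖ < 1 := by simpa using hx
  -- first error
  have hy : ‖B i x‖ ≤ m i := by
    calc ‖B i x‖ ≤ m i * ‖x‖ := (B i).le_opNorm x
      _ ≤ m i * 1 := by
        have : 0 ≤ m i := norm_nonneg _
        gcongr
      _ = m i := mul_one _
  have a1 : |f n x - D.N (v i) x (sq (α i))| ≤ ε / 4 := by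
    have h4 := hN i x hx (s i)
    rw [hLs i] at h4
    have h5 : f n x - D.N (v i) x (sq (α i)) =
        -((D.N v₀ (B i x) - (a + l (B i x) + Q (B i x) (B i x))) (s i)) := by
      rw [h4]
      show p i x + e i x (sq (α i)) - (D.N v₀ (B i x) (s i) + e i x (sq (α i))) = _
      rw [hp, ContinuousLinearMap.sub_apply]
      ring
    rw [h5, abs_neg, ← Real.norm_eq_abs]
    calc _ ≤ ‖D.N v₀ (B i x) - (a + l (B i x) + Q (B i x) (B i x))‖ * ‖s i‖ :=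
          ContinuousLinearMap.le_opNorm _ _
      _ ≤ (ε / 16 * m i ^ 2) * ‖s i‖ := by
          gcongr
          refine (hjδ _ ((hy.trans (hmle i)).trans h1.le)).trans ?_
          gcongr
      _ = ε / 16 * (‖s i‖ * m i ^ 2) := by ring
      _ ≤ ε / 16 * 4 := by gcongr; exact hs i
      _ = ε / 4 := by ring
  have a2 : |D.N w x (sq (α i)) - D.N (v i) x (sq (α i))| ≤ ε / 4 := by
    have h4 := (D.N w x - D.N (v i) x).le_opNorm (sq (α i))
    rw [ContinuousLinearMap.sub_apply, Real.norm_eq_abs] at h4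
    have h5 := h2 x hx
    rw [dist_eq_norm] at h5
    calc _ ≤ ‖D.N w x - D.N (v i) x‖ * ‖sq (α i)‖ := h4
      _ ≤ ε / 4 * 1 := mul_le_mul h5.le (hsα i) (norm_nonneg _) (by positivity)
      _ = ε / 4 := mul_one _
  have a3 : |D.N w x (sq β) - D.N w x (sq (α i))| < ε / 4 := by
    have h4 := (D.N w x).le_opNorm (sq β - sq (α i))
    rw [map_sub, Real.norm_eq_abs] at h4
    have h5 := sq_sub β (α i)
    rw [hβ1, hα1 i, norm_sub_rev β (α i)] at h5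
    have h6 := D.bd w x hx
    calc _ ≤ ‖D.N w x‖ * ‖sq β - sq (α i)‖ := h4
      _ ≤ D.K * (‖α i - β‖ * 2) := by
          refine mul_le_mul h6 (by linarith) (norm_nonneg _) ?_
          exact (norm_nonneg _).trans h6
      _ < ε / 4 := h3
  rw [Real.dist_eq]
  have b1 := abs_le.1 a1
  have b2 := abs_le.1 a2
  have b3 := abs_lt.1 a3
  rw [abs_lt]
  constructor <;> linarith [b1.1, b1.2, b2.1, b2.2, b3.1, b3.2]

/-- the literal form with a power `s > 2` -/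
theorem exists_sq_of_jet (D : ZDk k0 V (Fm V) X)
    (hact : ∀ {v A L v'}, D.St v A L v' → L = act A) {s C R : ℝ} (hs : 2 < s) (hR : 0 < R) {v₀ : X}
    (h : ∃ (a : Fm V →L[ℝ] ℝ) (l : V →L[ℝ] (Fm V →L[ℝ] ℝ))
      (Q : V →L[ℝ] V →L[ℝ] (Fm V →L[ℝ] ℝ)),
        ∀ x ∈ ball (0 : V) R, ‖D.N v₀ x - (a + l x + Q x x)‖ ≤ C * ‖x‖ ^ s) :
    ∃ w, ∃ α : V →L[ℝ] ℝ, ‖α‖ = 1 ∧ sq α ∈ D.Sm w := by
  obtain ⟨a, l, Q, h⟩ := h
  refine exists_sq (v₀ := v₀) D hact a l Q fun ε hε => ?_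
  have h1 : Tendsto (fun t : ℝ => |C| * t ^ (s - 2)) (𝓝 0) (𝓝 (|C| * 0 ^ (s - 2))) :=
    (Real.continuousAt_rpow_const 0 (s - 2) (Or.inr (by linarith))).tendsto.const_mul _
  rw [Real.zero_rpow (by linarith), mul_zero] at h1
  obtain ⟨δ, hδ, hδ'⟩ := Metric.eventually_nhds_iff.1 (h1.eventually (gt_mem_nhds hε))
  refine ⟨min (δ / 2) (R / 2), lt_min (by linarith) (by linarith), fun x hx => ?_⟩
  have hx1 : ‖x‖ ≤ δ / 2 := hx.trans (min_le_left _ _)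
  have hx2 : ‖x‖ ≤ R / 2 := hx.trans (min_le_right _ _)
  have h2 := h x (by rw [mem_ball_zero_iff]; linarith)
  refine h2.trans ?_
  rcases (norm_nonneg x).eq_or_lt with h0 | h0
  · rw [← h0, Real.zero_rpow (by linarith)]
    simp
  · have h3 : |C| * ‖x‖ ^ (s - 2) < ε := hδ' (by
      rw [dist_zero_right, norm_norm]; linarith)
    have h4 : ‖x‖ ^ s = ‖x‖ ^ (s - 2) * ‖x‖ ^ 2 := by
      rw [← Real.rpow_natCast ‖x‖ 2, ← Real.rpow_add h0]
      congr 1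
      push_cast
      ring
    calc C * ‖x‖ ^ s ≤ |C| * ‖x‖ ^ s := by gcongr; exact le_abs_self C
      _ = (|C| * ‖x‖ ^ (s - 2)) * ‖x‖ ^ 2 := by rw [h4]; ring
      _ ≤ ε * ‖x‖ ^ 2 := by gcongr

end Main

end Vale.Agent.P207.H310
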